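import Vale.Agent.P195.Final
import Mathlib.CategoryTheory.Abelian.Projective.Dimension

/-! From a nonprojective self-orthogonal generator to infinite finitistic dimension. -/

open CategoryTheory Abelian Limits

universe u

set_option backward.isDefEq.respectTransparency false

namespace Vale.Agent.AR

variable {R : Type u} [Ring R] (T : ModuleCat.{u} R)

/-- `Hom(M, T)` as a left module over `End(T)` -/
abbrev Hm (M : ModuleCat.{u} R) : ModuleCat.{u} (Module.End R T) :=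
  ModuleCat.of (Module.End R T) (M →ₗ[R] T)

/-- contravariant functoriality -/
def Hmap {M M' : ModuleCat.{u} R} (f : M ⟶ M') : Hm T M' ⟶ Hm T M := ModuleCat.ofHom
  { toFun := fun φ => φ ∘ₗ f.hom
    map_add' := fun _ _ => rfl
    map_smul' := fun _ _ => rfl }

lemma fp_Hm_self : FP (Hm T T) :=
  FP.retract (A := ModuleCat.of (Module.End R T) (Module.End R T))
    (ModuleCat.ofHom { toFun := fun φ => φ, map_add' := fun _ _ => rfl, map_smul' := fun _ _ => rfl })
    (ModuleCat.ofHom { toFun := fun φ => φ, map_add' := fun _ _ => rfl, map_smul' := fun _ _ => rfl })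
    rfl FP.self

lemma fp_Hm_retract {M : ModuleCat.{u} R} (i : M ⟶ T) (p : T ⟶ M) (h : i ≫ p = 𝟙 M) :
    FP (Hm T M) := by
  refine FP.retract (Hmap T i) (Hmap T p) ?_ (fp_Hm_self T)
  refine ModuleCat.hom_ext (LinearMap.ext fun φ => ?_)
  change φ ∘ₗ (i ≫ p).hom = φ
  rw [h]; rfl

lemma fp_Hm (h0 : FP (Hm T (ModuleCat.of R R))) {P : ModuleCat.{u} R} (hP : FP P) :
    FP (Hm T P) := by
  refine FP.induction (Q := fun P => FP (Hm T P)) h0 ?_ P hP
  intro A B C i1 i2 p1 p2 h hA hB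
  refine FP.sum (Hmap T p1) (Hmap T p2) (Hmap T i1) (Hmap T i2) ?_ hA hB
  refine ModuleCat.hom_ext (LinearMap.ext fun φ => ?_)
  change φ ∘ₗ (p1 ≫ i1).hom + φ ∘ₗ (p2 ≫ i2).hom = φ
  rw [← LinearMap.comp_add, ← ModuleCat.hom_add, h]; rfl

lemma Hm_se {A B C : ModuleCat.{u} R} {f : A ⟶ B} {g : B ⟶ C} (h : SE f g)
    (h1 : ∀ e : Ext C T 1, e = 0) : SE (Hmap T g) (Hmap T f) := by
  refine ⟨fun a b hab => LinearMap.ext fun c => ?_, fun φ => ⟨fun hφ => ?_, ?_⟩, fun φ => ?_⟩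
  · obtain ⟨x, rfl⟩ := h.surj c
    exact LinearMap.congr_fun hab x
  · obtain ⟨y, hy⟩ := h.ex2 T (Ext.mk₀ (ModuleCat.ofHom φ)) (by
      rw [Ext.mk₀_comp_mk₀, Ext.mk₀_eq_zero_iff]
      exact ModuleCat.hom_ext hφ)
    obtain ⟨ψ, rfl⟩ := (Ext.mk₀_bijective _ _).2 y
    rw [Ext.mk₀_comp_mk₀] at hy
    exact ⟨ψ.hom, congrArg ModuleCat.Hom.hom ((Ext.mk₀_bijective _ _).1 hy)⟩
  · rintro ⟨ψ, rfl⟩
    refine LinearMap.ext fun a => ?_
    change ψ (g.hom (f.hom a)) = 0
    rw [h.exa.apply_apply_eq_zero, map_zero]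
  · obtain ⟨y, hy⟩ := h.ex1 T (add_zero 1) (Ext.mk₀ (ModuleCat.ofHom φ)) (h1 _)
    obtain ⟨ψ, rfl⟩ := (Ext.mk₀_bijective _ _).2 y
    rw [Ext.mk₀_comp_mk₀] at hy
    exact ⟨ψ.hom, congrArg ModuleCat.Hom.hom ((Ext.mk₀_bijective _ _).1 hy)⟩

variable (Z : ModuleCat.{u} R)

/-- the generator -/
abbrev gen : ModuleCat.{u} R := ModuleCat.of R (R × Z)

lemma ext_gen {M : ModuleCat.{u} R} {n : ℕ} (h1 : ∀ e : Ext M Z n, e = 0)
    (h2 : ∀ e : Ext M (ModuleCat.of R R) n, e = 0) (e : Ext M (gen Z) n) : e = 0 := by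
  have h : ModuleCat.ofHom (LinearMap.fst R R Z) ≫ ModuleCat.ofHom (LinearMap.inl R R Z) +
      (ModuleCat.ofHom (LinearMap.snd R R Z) : gen Z ⟶ Z) ≫
        ModuleCat.ofHom (LinearMap.inr R R Z) = 𝟙 (gen Z) := by
    ext <;> simp
  rw [← e.comp_mk₀_id, ← h, Ext.mk₀_add, Ext.comp_add, ← Ext.mk₀_comp_mk₀, ← Ext.mk₀_comp_mk₀,
    ← Ext.comp_assoc_of_third_deg_zero, ← Ext.comp_assoc_of_third_deg_zero, h2 (e.comp _ _),
    h1 (e.comp _ _)]
  simp

lemma proj_of_split {r : ℕ} (g : ModuleCat.of R (Fin r → R) ⟶ Z)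
    (ρ : Hm (gen Z) (ModuleCat.of R (Fin r → R)) ⟶ Hm (gen Z) Z)
    (h : Hmap (gen Z) g ≫ ρ = 𝟙 _) : Projective Z := by
  let E : Fin r → Hm (gen Z) (ModuleCat.of R (Fin r → R)) := fun i =>
    LinearMap.inl R R Z ∘ₗ LinearMap.proj i
  let γ : Fin r → Module.End R (gen Z) := fun i =>
    LinearMap.inr R R Z ∘ₗ LinearMap.toSpanSingleton R Z (g.hom (Pi.single i 1)) ∘ₗ
      LinearMap.fst R R Z
  let σ : Z →ₗ[R] (Fin r → R) := LinearMap.pi fun i => LinearMap.fst R R Z ∘ₗ ρ.hom (E i)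
  have hg : ∀ x : Fin r → R, g.hom x = ∑ i, x i • g.hom (Pi.single i 1) := by
    intro x
    conv_lhs => rw [← Finset.univ_sum_single x, map_sum]
    refine Finset.sum_congr rfl fun i _ => ?_
    rw [← map_smul, ← Pi.single_smul, smul_eq_mul, mul_one]
  have h1 : (Hmap (gen Z) g).hom (LinearMap.inr R R Z) = ∑ i, γ i • E i := by
    refine LinearMap.ext fun x => ?_
    rw [LinearMap.sum_apply]
    change LinearMap.inr R R Z (g.hom x) = ∑ i, LinearMap.inr R R Z (x i • g.hom (Pi.single i 1))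
    rw [← map_sum, ← hg]
  have h2 : ρ.hom ((Hmap (gen Z) g).hom (LinearMap.inr R R Z)) = LinearMap.inr R R Z :=
    congrArg (fun φ : Hm (gen Z) Z ⟶ Hm (gen Z) Z => φ.hom (LinearMap.inr R R Z)) h
  rw [h1, map_sum] at h2
  have h3 : ∀ z, g.hom (σ z) = z := by
    intro z
    have h4 := LinearMap.congr_fun h2 z
    rw [LinearMap.sum_apply] at h4
    apply LinearMap.inr_injective (R := R) (M := R)
    rw [← h4, hg, map_sum]
    refine Finset.sum_congr rfl fun i _ => ?_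
    rw [map_smul ρ.hom]
    rfl
  have hP : FP (ModuleCat.of R (Fin r → R)) := ⟨inferInstanceAs (Module.Finite R (Fin r → R)),
    (IsProjective.iff_projective (Fin r → R)).1 inferInstance⟩
  exact (FP.retract g (ModuleCat.ofHom σ) (ModuleCat.hom_ext (LinearMap.ext h3)) hP).2

theorem exists_pd [IsNoetherianRing R] (hZ : Module.Finite R Z)
    (hE : ∀ i, 0 < i → (∀ e : Ext Z Z i, e = 0) ∧ ∀ e : Ext Z (ModuleCat.of R R) i, e = 0)
    (hP : ¬ Projective Z) (n : ℕ) : ∃ (W : ModuleCat.{u} R) (κ : Ext Z W (n + 1)),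
      IsSyz Z (n + 1) W κ ∧ Module.Finite R W ∧
      Module.Finite (Module.End R (gen Z)) (Hm (gen Z) W) ∧
      HasProjectiveDimensionLT (Hm (gen Z) W) (n + 2) ∧
      ¬ HasProjectiveDimensionLT (Hm (gen Z) W) (n + 1) := by
  have hT : ∀ i, 0 < i → ∀ e : Ext Z (gen Z) i, e = 0 := fun i hi =>
    ext_gen Z (hE i hi).1 (hE i hi).2
  have h0 : FP (Hm (gen Z) (ModuleCat.of R R)) :=
    fp_Hm_retract _ (ModuleCat.ofHom (LinearMap.inl R R Z)) (ModuleCat.ofHom (LinearMap.fst R R Z))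
      rfl
  induction n with
  | zero =>
    obtain ⟨r, f, hf⟩ := Module.Finite.exists_fin' R Z
    have hS := SE.ker (N := Z) (ModuleCat.ofHom f) hf
    have hF : FP (ModuleCat.of R (Fin r → R)) := ⟨inferInstanceAs (Module.Finite R (Fin r → R)),
      (IsProjective.iff_projective (Fin r → R)).1 inferInstance⟩
    have hH := Hm_se (gen Z) hS (hT 1 one_pos)
    have hF' := fp_Hm _ h0 hF
    have hZ' : FP (Hm (gen Z) Z) := fp_Hm_retract _ (ModuleCat.ofHom (LinearMap.inr R R Z))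
      (ModuleCat.ofHom (LinearMap.snd R R Z)) rfl
    refine ⟨_, _, IsSyz.succ 0 _ _ _ _ _ hS hF _ (IsSyz.zero Z (𝟙 Z) inferInstance),
      inferInstanceAs (Module.Finite R (LinearMap.ker f)), ?_, ?_, ?_⟩
    · have := hF'.1
      exact Module.Finite.of_surjective _ hH.surj
    · exact (hH.shortExact.hasProjectiveDimensionLT_X₃_iff 0 hF'.2).2
        (projective_iff_hasProjectiveDimensionLT_one.1 hZ'.2)
    · intro h
      have := projective_iff_hasProjectiveDimensionLT_one.2 h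
      have hs := hH.shortExact.splittingOfProjective
      exact hP (proj_of_split Z _ hs.r hs.f_r)
  | succ n ih =>
    obtain ⟨W, κ, h, hW, -, h1, h2⟩ := ih
    obtain ⟨A, P, f, g, hS, hF, hA⟩ := exists_fp_cover W hW
    have hH := Hm_se (gen Z) hS (fun e => h.pre_inj _ 1 _ one_pos rfl e (hT _ (by omega) _))
    have hF' := fp_Hm _ h0 hF
    refine ⟨_, _, IsSyz.succ _ _ _ _ _ _ hS hF _ h, hA, ?_, ?_, ?_⟩
    · have := hF'.1
      exact Module.Finite.of_surjective _ hH.surj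
    · exact (hH.shortExact.hasProjectiveDimensionLT_X₃_iff (n + 1) hF'.2).2 h1
    · exact fun h3 => h2 ((hH.shortExact.hasProjectiveDimensionLT_X₃_iff n hF'.2).1 h3)

attribute [local instance] ModuleCat.moduleOfAlgebraModule
  ModuleCat.isScalarTower_of_algebra_moduleCat in
lemma end_algebra (k : Type u) [Field k] [Algebra k R] [Module.Finite k R]
    (hT : Module.Finite R T) :
    ∃ i : Algebra k (Module.End R T), @Module.Finite k (Module.End R T) _ _ i.toModule := by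
  refine ⟨inferInstance, ?_⟩
  have : Module.Finite k T := Module.Finite.trans R T
  exact Module.Finite.of_injective (LinearMap.restrictScalarsₗ k R T T k)
    (LinearMap.restrictScalars_injective k)

theorem findim_infinite {k : Type u} [Field k] {lam : k} (l0 : lam ≠ 0)
    (hl : ∀ j : ℕ, lam ^ (j + 1) ≠ 1) :
    ∃ (A : Type u) (_ : Ring A) (_ : Algebra k A) (_ : Module.Finite k A),
      ∀ n : ℕ, 1 ≤ n → ∃ N : ModuleCat.{u} A, Module.Finite A N ∧ projectiveDimension N = n := by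
  obtain ⟨A, i1, i2, i3, Z, h1, h2, h3⟩ := counterexample l0 hl
  have : IsNoetherianRing A := IsNoetherianRing.of_finite k A
  obtain ⟨j1, j2⟩ := end_algebra (gen Z) k (inferInstanceAs (Module.Finite A (A × Z)))
  refine ⟨Module.End A (gen Z), inferInstance, j1, j2, fun n hn => ?_⟩
  obtain ⟨m, rfl⟩ : ∃ m, n = m + 1 := ⟨n - 1, by omega⟩
  obtain ⟨W, -, -, -, h4, h5, h6⟩ := exists_pd Z h1 h2 h3 m
  exact ⟨_, h4, le_antisymm ((projectiveDimension_le_iff _ _).2 h5)
    ((projectiveDimension_ge_iff _ _).2 h6)⟩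

end Vale.Agent.AR
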